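import Crest.Agent.Helper96.S0151.Defs

/-!
# S0151 leaf C4 (Adj) — the adjoint of a covariant weighted shift (helper22)

If `W` is the covariant shift `(W g)(x, k) = m (σ^k x) * g (x, k - d)` with a bounded measurable
multiplier `m`, then `W†` is the covariant shift with multiplier `conj (m ∘ σ^d)` and degree `-d`.
-/

set_option autoImplicit false

open MeasureTheory Crest.AnalysisR.ProductShift
open scoped ENNReal ComplexConjugate

namespace Crest.Agent.Helper22.S0151

open Crest.Agent.Helper96.S0151

/-! ### Private copies of the three facts of leaves C1/C2 used here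
(kept under `AdjAux` so that this leaf imports `Defs` only) -/

namespace AdjAux

theorem orbitPoint_orbitPoint (θ : ℕ → ℝ) (a b : ℤ) (x : ℕ → ℝ) :
    orbitPoint θ a (orbitPoint θ b x) = orbitPoint θ (a + b) x := by
  funext i
  simp only [orbitPoint]
  have e : Int.fract (x i + (b : ℝ) * θ i) + (a : ℝ) * θ i
      = x i + ((a + b : ℤ) : ℝ) * θ i - (⌊x i + (b : ℝ) * θ i⌋ : ℝ) := by
    rw [Int.fract]; push_cast; ring
  rw [e, Int.fract_sub_intCast]

theorem measurable_orbitPoint (θ : ℕ → ℝ) (k : ℤ) : Measurable (orbitPoint θ k) := by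
  refine measurable_pi_iff.2 fun i => ?_
  exact measurable_fract.comp ((measurable_pi_apply i).add_const _)

theorem measurable_orbitPoint_prod (θ : ℕ → ℝ) :
    Measurable (fun p : (ℕ → ℝ) × ℤ => orbitPoint θ p.2 p.1) := by
  refine measurable_pi_iff.2 fun i => ?_
  refine measurable_fract.comp ?_
  refine ((measurable_pi_apply i).comp measurable_fst).add ?_
  exact ((Measurable.of_discrete (f := fun k : ℤ => (k : ℝ))).comp measurable_snd).mul_const _

theorem count_map_sub (d : ℤ) :
    Measure.map (fun k : ℤ => k - d) Measure.count = Measure.count := by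
  refine Measure.ext fun s hs => ?_
  have hpre : (fun k : ℤ => k - d) ⁻¹' s = (fun k : ℤ => k + d) '' s := by
    ext k
    simp only [Set.mem_preimage, Set.mem_image]
    constructor
    · intro hk
      exact ⟨k - d, hk, by ring⟩
    · rintro ⟨j, hj, rfl⟩
      simpa using hj
  rw [Measure.map_apply Measurable.of_discrete hs, hpre,
    Measure.count_apply (MeasurableSet.of_discrete), Measure.count_apply hs,
    Function.Injective.encard_image (add_left_injective d)]

theorem measurePreserving_shiftMap (d : ℤ) :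
    MeasurePreserving (shiftMap d) pairMeasure pairMeasure := by
  have h1 : MeasurePreserving (fun k : ℤ => k - d) Measure.count Measure.count :=
    ⟨Measurable.of_discrete, count_map_sub d⟩
  exact (MeasurePreserving.id cubeMeasure).prod h1

end AdjAux

open AdjAux

/-- The shift of the integer coordinate as a measurable equivalence. -/
def shiftEquiv (d : ℤ) : ((ℕ → ℝ) × ℤ) ≃ᵐ ((ℕ → ℝ) × ℤ) where
  toFun := shiftMap d
  invFun := shiftMap (-d)
  left_inv := fun p => by simp [shiftMap]
  right_inv := fun p => by simp [shiftMap]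
  measurable_toFun :=
    measurable_fst.prodMk ((Measurable.of_discrete (f := fun k : ℤ => k - d)).comp measurable_snd)
  measurable_invFun :=
    measurable_fst.prodMk ((Measurable.of_discrete (f := fun k : ℤ => k - -d)).comp measurable_snd)

theorem shiftEquiv_apply (d : ℤ) (p : (ℕ → ℝ) × ℤ) : shiftEquiv d p = shiftMap d p := rfl

theorem IsCov.adjoint {θ : ℕ → ℝ} {m : (ℕ → ℝ) → ℂ} {d : ℤ} {W : pairSpace →L[ℂ] pairSpace}
    (h : IsCov θ m d W) (hm : BM m) :
    IsCov θ (fun y => conj (m (orbitPoint θ d y))) (-d) (ContinuousLinearMap.adjoint W) := by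
  obtain ⟨hmm, C, hC⟩ := hm
  intro g
  -- the candidate function
  set F : (ℕ → ℝ) × ℤ → ℂ := fun p =>
    conj (m (orbitPoint θ d (orbitPoint θ p.2 p.1))) * (g : (ℕ → ℝ) × ℤ → ℂ) (p.1, p.2 - -d)
    with hF
  have hshift : MemLp ((g : (ℕ → ℝ) × ℤ → ℂ) ∘ shiftMap (-d)) 2 pairMeasure :=
    (Lp.memLp g).comp_measurePreserving (measurePreserving_shiftMap (-d))
  have hmeas : Measurable fun p : (ℕ → ℝ) × ℤ =>
      conj (m (orbitPoint θ d (orbitPoint θ p.2 p.1))) :=
    Complex.continuous_conj.measurable.comp
      (hmm.comp ((measurable_orbitPoint θ d).comp (measurable_orbitPoint_prod θ)))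
  have hF2 : MemLp F 2 pairMeasure := by
    refine hshift.of_le_mul (c := C) ?_ ?_
    · exact hmeas.aestronglyMeasurable.mul hshift.aestronglyMeasurable
    · refine Filter.Eventually.of_forall fun p => ?_
      simp only [hF, norm_mul, RCLike.norm_conj, Function.comp_apply, shiftMap]
      exact mul_le_mul_of_nonneg_right (hC _) (norm_nonneg _)
  have key : ContinuousLinearMap.adjoint W g = hF2.toLp F := by
    refine ext_inner_right ℂ fun f => ?_
    rw [ContinuousLinearMap.adjoint_inner_left, L2.inner_def, L2.inner_def]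
    -- the integrand after the change of variables
    set G : (ℕ → ℝ) × ℤ → ℂ := fun p =>
      m (orbitPoint θ p.2 p.1) * (f : (ℕ → ℝ) × ℤ → ℂ) (p.1, p.2 - d)
        * conj ((g : (ℕ → ℝ) × ℤ → ℂ) p) with hG
    have h1 : ∫ p, inner ℂ ((g : (ℕ → ℝ) × ℤ → ℂ) p) ((W f : (ℕ → ℝ) × ℤ → ℂ) p) ∂pairMeasure
        = ∫ p, G p ∂pairMeasure := by
      refine integral_congr_ae ?_
      filter_upwards [h f] with p hp
      rw [RCLike.inner_apply, hp]
    have h2 : ∫ p, inner ℂ ((hF2.toLp F : (ℕ → ℝ) × ℤ → ℂ) p) ((f : (ℕ → ℝ) × ℤ → ℂ) p)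
          ∂pairMeasure
        = ∫ p, G (shiftMap (-d) p) ∂pairMeasure := by
      refine integral_congr_ae ?_
      filter_upwards [hF2.coeFn_toLp] with p hp
      rw [RCLike.inner_apply, hp]
      simp only [hF, hG, shiftMap, map_mul, RingHomCompTriple.comp_apply, RingHom.id_apply,
        orbitPoint_orbitPoint]
      have e1 : p.2 - -d - d = p.2 := by ring
      have e2 : d + p.2 = p.2 - -d := by ring
      rw [e1, e2]
      simp
      ring
    rw [h1, h2]
    exact ((measurePreserving_shiftMap (-d)).integral_comp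
      (shiftEquiv (-d)).measurableEmbedding G).symm
  rw [key]
  exact hF2.coeFn_toLp

end Crest.Agent.Helper22.S0151
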