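import Mathlib

/-!
# S0151, a piece of leaf A2 (helper22): a polynomial approximating `log` in `C¹` on `[a, b]`

`exists_poly_log`: for `0 < a ≤ 1 ≤ b` and `η > 0` there is a real polynomial `p` with `p 1 = 0`,
`|p' x - 1/x| ≤ η`, `|x p' x - 1| ≤ η b` and `|p x - log x| ≤ η |x - 1|` on `[a, b]`
(Weierstrass for `1/x`, an antiderivative built by hand, mean value inequality).
-/

set_option autoImplicit false

open Polynomial

namespace Crest.Agent.Helper22.S0151

/-- An antiderivative of a real polynomial. -/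
noncomputable def polyPrim (q : ℝ[X]) : ℝ[X] :=
  q.sum fun n c => monomial (n + 1) (c / ((n : ℝ) + 1))

theorem derivative_polyPrim (q : ℝ[X]) : derivative (polyPrim q) = q := by
  unfold polyPrim
  rw [Polynomial.sum, map_sum]
  conv_rhs => rw [← q.sum_monomial_eq, Polynomial.sum]
  refine Finset.sum_congr rfl fun n _ => ?_
  rw [derivative_monomial]
  congr 1
  have : ((n : ℝ) + 1) ≠ 0 := by positivity
  push_cast
  field_simp

theorem exists_poly_log (a b η : ℝ) (ha : 0 < a) (ha1 : a ≤ 1) (hb : 1 ≤ b) (hη : 0 < η) :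
    ∃ p : ℝ[X], p.eval 1 = 0 ∧
      (∀ x ∈ Set.Icc a b, |(derivative p).eval x - x⁻¹| ≤ η) ∧
      (∀ x ∈ Set.Icc a b, |x * (derivative p).eval x - 1| ≤ η * b) ∧
      (∀ x ∈ Set.Icc a b, |p.eval x - Real.log x| ≤ η * |x - 1|) := by
  have hcont : ContinuousOn (fun x : ℝ => x⁻¹) (Set.Icc a b) := by
    refine continuousOn_inv₀.mono fun x hx => ?_
    have : 0 < x := lt_of_lt_of_le ha hx.1
    exact this.ne'
  obtain ⟨q, hq⟩ := exists_polynomial_near_of_continuousOn a b (fun x : ℝ => x⁻¹) hcont η hη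
  set p : ℝ[X] := polyPrim q - C ((polyPrim q).eval 1) with hp
  have hder : derivative p = q := by
    rw [hp, derivative_sub, derivative_C, sub_zero, derivative_polyPrim]
  have h1 : p.eval 1 = 0 := by
    rw [hp, eval_sub, eval_C, sub_self]
  refine ⟨p, h1, ?_, ?_, ?_⟩
  · intro x hx
    rw [hder]
    exact (hq x hx).le
  · intro x hx
    rw [hder]
    have hxpos : 0 < x := lt_of_lt_of_le ha hx.1
    have h2 : x * q.eval x - 1 = x * (q.eval x - x⁻¹) := by
      field_simp
    rw [h2, abs_mul, abs_of_pos hxpos, mul_comm]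
    exact mul_le_mul (hq x hx).le hx.2 hxpos.le hη.le
  · intro x hx
    -- mean value inequality for `h = p - log` on `[a, b]`
    have hconv : Convex ℝ (Set.Icc a b) := convex_Icc a b
    have hdiff : ∀ y ∈ Set.Icc a b,
        HasDerivWithinAt (fun y : ℝ => p.eval y - Real.log y) (q.eval y - y⁻¹) (Set.Icc a b) y := by
      intro y hy
      have hypos : 0 < y := lt_of_lt_of_le ha hy.1
      have hpd : HasDerivAt (fun y : ℝ => p.eval y) (q.eval y) y := by
        have := p.hasDerivAt y
        rwa [hder] at this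
      exact (hpd.sub (Real.hasDerivAt_log hypos.ne')).hasDerivWithinAt
    have hbound : ∀ y ∈ Set.Icc a b, ‖q.eval y - y⁻¹‖ ≤ η := fun y hy => by
      rw [Real.norm_eq_abs]
      exact (hq y hy).le
    have h1mem : (1 : ℝ) ∈ Set.Icc a b := ⟨ha1, hb⟩
    have := hconv.norm_image_sub_le_of_norm_hasDerivWithin_le hdiff hbound h1mem hx
    simp only [h1, Real.log_one, sub_zero, Real.norm_eq_abs] at this
    exact this

end Crest.Agent.Helper22.S0151
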