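import Crest.Agent.Helper69.S0151.Neumann
import Crest.Agent.Helper72.S0151.DetInv

/-!
# S0151 leaf A3 (Main), core — the case `z ≠ 0` with the Fuglede–Kadison identity (leaf A2)
as a hypothesis (helper22)

Abstract Hilbert space.  If `T` is "summably quasinilpotent" (`‖T ^ n‖ ≤ r ^ n` eventually, for
every `r > 0`), the vector state of the unit vector `ξ` is a trace on the `*`-algebra generated
by `T` and all moments `⟪ξ, T ^ n ξ⟫`, `n ≥ 1`, vanish, then `vectorDet ξ (T - z) = ‖z‖` for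
`z ≠ 0`.  From leaves A0 (Neumann series, spectrum) and A1 (`vectorDet_of_bddBelow`); the statement of
leaf A2 (`fk_zero`) is the hypothesis `hfk`, so that this file does not wait for A2.
`Main.lean` plugs A2 in.
-/

set_option autoImplicit false

open MeasureTheory Crest.AnalysisR.ProductShift
open scoped ENNReal ComplexConjugate

namespace Crest.Agent.Helper22.S0151

open Crest.Agent.Helper96.S0151
open Crest.Agent.Helper69.S0151 Crest.Agent.Helper72.S0151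

section Abstract

variable {H : Type*} [NormedAddCommGroup H] [InnerProductSpace ℂ H] [CompleteSpace H]

/-- Leaf A3 (Main), with the statement of leaf A2 as the hypothesis `hfk`. -/
theorem vectorDet_sub_smul_of_fk (ξ : H) (hξ : ‖ξ‖ = 1) (T : H →L[ℂ] H)
    (hq : ∀ r : ℝ, 0 < r → ∃ n₀ : ℕ, ∀ n ≥ n₀, ‖T ^ n‖ ≤ r ^ n)
    (htr : ∀ P ∈ StarAlgebra.adjoin ℂ {T}, ∀ Q ∈ StarAlgebra.adjoin ℂ {T},
      inner ℂ ξ ((P * Q) ξ) = inner ℂ ξ ((Q * P) ξ))
    (hmom : ∀ n : ℕ, 1 ≤ n → inner ℂ ξ ((T ^ n) ξ) = 0) (z : ℂ) (hz : z ≠ 0)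
    (hfk : ∀ B : H →L[ℂ] H, (Summable fun n : ℕ => ‖B ^ n‖) →
      (∀ P ∈ StarAlgebra.adjoin ℂ {B}, ∀ Q ∈ StarAlgebra.adjoin ℂ {B},
        inner ℂ ξ ((P * Q) ξ) = inner ℂ ξ ((Q * P) ξ)) →
      (∀ n : ℕ, 1 ≤ n → inner ℂ ξ ((B ^ n) ξ) = 0) →
      inner ℂ ξ (cfc Real.log (star (1 - B) * (1 - B)) ξ) = 0) :
    vectorDet ξ (T - z • (1 : H →L[ℂ] H)) = ‖z‖ := by
  have hzn : 0 < ‖z‖ := norm_pos_iff.2 hz
  set B : H →L[ℂ] H := z⁻¹ • T with hBdef
  have hBpow : ∀ n : ℕ, B ^ n = (z⁻¹) ^ n • T ^ n := fun n => smul_pow _ _ _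
  -- summability of `‖B ^ n‖`
  have hB : Summable fun n : ℕ => ‖B ^ n‖ := by
    obtain ⟨n₀, hn₀⟩ := hq (‖z‖ / 2) (by positivity)
    refine Summable.of_norm_bounded_eventually_nat (g := fun n : ℕ => ((1 : ℝ) / 2) ^ n)
      summable_geometric_two ?_
    filter_upwards [Filter.eventually_ge_atTop n₀] with n hn
    rw [norm_norm, hBpow, norm_smul, norm_pow, norm_inv]
    have h1 := hn₀ n hn
    have h2 : (‖z‖⁻¹) ^ n * (‖z‖ / 2) ^ n = ((1 : ℝ) / 2) ^ n := by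
      rw [← mul_pow]
      congr 1
      field_simp
    calc (‖z‖⁻¹) ^ n * ‖T ^ n‖ ≤ (‖z‖⁻¹) ^ n * (‖z‖ / 2) ^ n :=
          mul_le_mul_of_nonneg_left h1 (by positivity)
      _ = ((1 : ℝ) / 2) ^ n := h2
  -- the trace property and the moments pass to `B`
  have hBmem : B ∈ StarAlgebra.adjoin ℂ {T} :=
    (StarAlgebra.adjoin ℂ {T}).smul_mem (StarAlgebra.self_mem_adjoin_singleton ℂ T) _
  have hle : StarAlgebra.adjoin ℂ {B} ≤ StarAlgebra.adjoin ℂ {T} :=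
    StarAlgebra.adjoin_le (Set.singleton_subset_iff.2 hBmem)
  have htrB : ∀ P ∈ StarAlgebra.adjoin ℂ {B}, ∀ Q ∈ StarAlgebra.adjoin ℂ {B},
      inner ℂ ξ ((P * Q) ξ) = inner ℂ ξ ((Q * P) ξ) :=
    fun P hP Q hQ => htr P (hle hP) Q (hle hQ)
  have hmomB : ∀ n : ℕ, 1 ≤ n → inner ℂ ξ ((B ^ n) ξ) = 0 := by
    intro n hn
    rw [hBpow, smul_apply, inner_smul_right, hmom n hn, mul_zero]
  have hfk := hfk B hB htrB hmomB
  -- the constant `S = ∑ ‖B ^ n‖ > 0`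
  set S : ℝ := ∑' n : ℕ, ‖B ^ n‖ with hS
  have hSv : ∀ v : H, ‖v‖ ≤ S * ‖(1 - B) v‖ := norm_le_tsum_mul_norm_one_sub B hB
  have hSpos : 0 < S := by
    by_contra hneg
    have h1 := hSv ξ
    rw [hξ] at h1
    have h2 : S * ‖(1 - B) ξ‖ ≤ 0 :=
      mul_nonpos_of_nonpos_of_nonneg (not_lt.1 hneg) (norm_nonneg _)
    linarith
  have hlow : ∀ v : H, S⁻¹ * ‖v‖ ≤ ‖(1 - B) v‖ := by
    intro v
    rw [inv_mul_le_iff₀ hSpos]
    exact hSv v
  -- `T - z = (-z) • (1 - B)`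
  have hA : T - z • (1 : H →L[ℂ] H) = (-z) • (1 - B) := by
    rw [hBdef, smul_sub, smul_smul, neg_mul, mul_inv_cancel₀ hz, neg_smul, neg_smul, one_smul]
    abel
  have hAlow : ∀ v : H, ‖z‖ / S * ‖v‖ ≤ ‖(T - z • (1 : H →L[ℂ] H)) v‖ := by
    intro v
    rw [hA, smul_apply, norm_smul, norm_neg, div_mul_eq_mul_div,
      mul_div_assoc]
    refine mul_le_mul_of_nonneg_left ?_ hzn.le
    rw [div_le_iff₀ hSpos, mul_comm]
    exact hSv v
  rw [vectorDet_of_bddBelow ξ (T - z • (1 : H →L[ℂ] H)) (‖z‖ / S) (by positivity) hAlow]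
  -- `(T - z)* (T - z) = ‖z‖² (1 - B)* (1 - B)`
  set Y : H →L[ℂ] H := star (1 - B) * (1 - B) with hY
  have hYsa : IsSelfAdjoint Y := IsSelfAdjoint.star_mul_self (1 - B)
  have hstar : star (T - z • (1 : H →L[ℂ] H)) * (T - z • (1 : H →L[ℂ] H))
      = (‖z‖ ^ 2 : ℝ) • Y := by
    rw [hA, star_smul, smul_mul_smul_comm, hY]
    have : (star (-z) * -z : ℂ) = ((‖z‖ ^ 2 : ℝ) : ℂ) := by
      rw [star_neg, neg_mul_neg, Complex.star_def, Complex.conj_mul']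
      push_cast; rfl
    rw [this, Complex.coe_smul]
  have hspec : ∀ x ∈ spectrum ℝ Y, x ≠ 0 := by
    intro x hx
    have h1 := (spectrum_star_mul_self_subset (1 - B) S⁻¹ (inv_nonneg.2 hSpos.le) hlow hx).1
    have h2 : 0 < S⁻¹ ^ 2 := by positivity
    linarith
  have hlog : cfc Real.log ((‖z‖ ^ 2 : ℝ) • Y)
      = algebraMap ℝ (H →L[ℂ] H) (Real.log (‖z‖ ^ 2)) + cfc Real.log Y :=
    CFC.log_smul Y hspec (by positivity) hYsa
  rw [hstar, hlog, add_apply, inner_add_right, hfk, add_zero,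
    Algebra.algebraMap_eq_smul_one, smul_apply, one_apply_eq_self, ← Complex.coe_smul,
    inner_smul_right, inner_self_eq_norm_sq_to_K, hξ]
  simp only [RCLike.ofReal_one, one_pow, mul_one, RCLike.re_to_complex, Complex.ofReal_re]
  rw [Real.log_pow]
  push_cast
  rw [mul_div_cancel_left₀ _ (two_ne_zero), Real.exp_log hzn]

end Abstract

end Crest.Agent.Helper22.S0151
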