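import Crest.Agent.Helper99.S0151.FK
import Crest.Agent.Helper22.S0151.MainCore

/-!
# S0151 leaf A3 (Main) — the case `z ≠ 0` (helper22)

`vectorDet_sub_smul` = `MainCore.vectorDet_sub_smul_of_fk` with leaf A2 (`fk_zero`) plugged in.
-/

set_option autoImplicit false

open MeasureTheory Crest.AnalysisR.ProductShift
open scoped ENNReal ComplexConjugate

namespace Crest.Agent.Helper22.S0151

open Crest.Agent.Helper96.S0151
open Crest.Agent.Helper99.S0151 (fk_zero)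

section Abstract

variable {H : Type*} [NormedAddCommGroup H] [InnerProductSpace ℂ H] [CompleteSpace H]

/-- Leaf A3 (Main): the case `z ≠ 0`, from A1 and A2. -/
theorem vectorDet_sub_smul (ξ : H) (hξ : ‖ξ‖ = 1) (T : H →L[ℂ] H)
    (hq : ∀ r : ℝ, 0 < r → ∃ n₀ : ℕ, ∀ n ≥ n₀, ‖T ^ n‖ ≤ r ^ n)
    (htr : ∀ P ∈ StarAlgebra.adjoin ℂ {T}, ∀ Q ∈ StarAlgebra.adjoin ℂ {T},
      inner ℂ ξ ((P * Q) ξ) = inner ℂ ξ ((Q * P) ξ))
    (hmom : ∀ n : ℕ, 1 ≤ n → inner ℂ ξ ((T ^ n) ξ) = 0) (z : ℂ) (hz : z ≠ 0) :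
    vectorDet ξ (T - z • (1 : H →L[ℂ] H)) = ‖z‖ :=
  vectorDet_sub_smul_of_fk ξ hξ T hq htr hmom z hz
    (fun B hB htrB hmomB => fk_zero ξ B hB htrB hmomB)

end Abstract

end Crest.Agent.Helper22.S0151
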